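import Vale.Agent.H20.TriCont

/-!
# P075: any constant in the dyadic triangular Hilbert bound (Q2) is at least `3`

`dyadicLambda S ε F0 F1 F2` is the dyadic form `Λ^d_{S,ε} (F0, F1, F2)` of the problem and
`normL3 F` is the norm of `F` in `L^3 ([0, ∞)^2)` (file `TriContDefs`).

For every `j` there are coefficients `|ε_k| ≤ 1` and a measurable function `F` with values in
`[-1, 1]`, vanishing outside a bounded square `[0, R)^2`, such that with the `2 j` consecutive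
scales `S = {1, …, 2 j}`

  `Λ^d_{S,ε} (F, F, F) = 3 (1 - 2^(-j)) ‖F‖_3 ^ 3`   and   `‖F‖_3 > 0`.

Consequently, for every `C < 3` the bound `|Λ^d_{S,ε} (F0, F1, F2)| ≤ C ∏ ‖F_v‖_3` fails for
suitable `S`, `ε` and `F0 = F1 = F2 = F`.  The functions are quadratic phases: `F` is constant
on unit squares with values `± 1` given by a quadratic form over the field with two elements.
-/

namespace Vale.Agent.Results.P075.A_ConstantAtLeastThree

open MeasureTheory Vale.Agent.H20.TriCont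

theorem result :
    (∀ j : ℕ, ∃ (ε : ℤ → ℝ) (F : ℝ → ℝ → ℝ) (R : ℝ),
        (∀ k, |ε k| ≤ 1) ∧ Measurable (Function.uncurry F) ∧ (∀ x y, |F x y| ≤ 1) ∧
        (∀ x y, F x y ≠ 0 → 0 ≤ x ∧ x < R ∧ 0 ≤ y ∧ y < R) ∧ 0 < normL3 F ∧
        dyadicLambda (Finset.Icc (1 : ℤ) (2 * (j : ℤ))) ε F F F =
          3 * (1 - (1 / 2 : ℝ) ^ j) * (normL3 F * normL3 F * normL3 F)) ∧
    (∀ C : ℝ, C < 3 → ∃ (S : Finset ℤ) (ε : ℤ → ℝ) (F : ℝ → ℝ → ℝ) (R : ℝ),
        (∀ k, |ε k| ≤ 1) ∧ Measurable (Function.uncurry F) ∧ (∀ x y, |F x y| ≤ 1) ∧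
        (∀ x y, F x y ≠ 0 → 0 ≤ x ∧ x < R ∧ 0 ≤ y ∧ y < R) ∧ 0 < normL3 F ∧
        C * (normL3 F * normL3 F * normL3 F) < dyadicLambda S ε F F F) :=
  lambda_ge_three

end Vale.Agent.Results.P075.A_ConstantAtLeastThree
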