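import Vale.Agent.H20.TriCont

/-!
# P075: every constant in the dyadic triangular Hilbert bound (Q2) is at least `3`, literal form

`dyadicLambda S ε F0 F1 F2` is the dyadic form `Λ^d_{S,ε} (F0, F1, F2)` of the problem and
`normL3 F` is the norm of `F` in `L^3 ([0, ∞)^2)` (file `TriContDefs`).

The first two conjuncts are the statement of the hand-in `A_ConstantAtLeastThree`: the extremal
examples with `2 j` consecutive scales, and the failure of every constant `C < 3`.  The third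
conjunct is the same fact in the form of question Q2: if a real number `C` satisfies
`|Λ^d_{S,ε} (F, F, F)| ≤ C ‖F‖_3 ^ 3` for all finite `S`, all `|ε_k| ≤ 1` and all measurable `F`
with values in `[-1, 1]` vanishing outside a bounded square `[0, R)^2`, then `3 ≤ C`.
-/

namespace Vale.Agent.Results.P075.A_ConstantAtLeastThreeLiteral

open MeasureTheory Vale.Agent.H20.TriCont

theorem result :
    (∀ j : ℕ, ∃ (ε : ℤ → ℝ) (F : ℝ → ℝ → ℝ) (R : ℝ),
        (∀ k, |ε k| ≤ 1) ∧ Measurable (Function.uncurry F) ∧ (∀ x y, |F x y| ≤ 1) ∧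
        (∀ x y, F x y ≠ 0 → 0 ≤ x ∧ x < R ∧ 0 ≤ y ∧ y < R) ∧ 0 < normL3 F ∧
        dyadicLambda (Finset.Icc (1 : ℤ) (2 * (j : ℤ))) ε F F F =
          3 * (1 - (1 / 2 : ℝ) ^ j) * (normL3 F * normL3 F * normL3 F)) ∧
    (∀ C : ℝ, C < 3 → ∃ (S : Finset ℤ) (ε : ℤ → ℝ) (F : ℝ → ℝ → ℝ) (R : ℝ),
        (∀ k, |ε k| ≤ 1) ∧ Measurable (Function.uncurry F) ∧ (∀ x y, |F x y| ≤ 1) ∧
        (∀ x y, F x y ≠ 0 → 0 ≤ x ∧ x < R ∧ 0 ≤ y ∧ y < R) ∧ 0 < normL3 F ∧
        C * (normL3 F * normL3 F * normL3 F) < dyadicLambda S ε F F F) ∧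
    (∀ C : ℝ,
        (∀ (S : Finset ℤ) (ε : ℤ → ℝ) (F : ℝ → ℝ → ℝ) (R : ℝ),
          (∀ k, |ε k| ≤ 1) → Measurable (Function.uncurry F) → (∀ x y, |F x y| ≤ 1) →
          (∀ x y, F x y ≠ 0 → 0 ≤ x ∧ x < R ∧ 0 ≤ y ∧ y < R) →
          |dyadicLambda S ε F F F| ≤ C * (normL3 F * normL3 F * normL3 F)) →
        3 ≤ C) := by
  refine ⟨lambda_ge_three.1, lambda_ge_three.2, fun C hC => ?_⟩
  by_contra h
  obtain ⟨S, ε, F, R, hε, hm, hb, hs, _, hlt⟩ := lambda_ge_three.2 C (lt_of_not_ge h)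
  have h1 := hC S ε F R hε hm hb hs
  have h2 := le_abs_self (dyadicLambda S ε F F F)
  linarith

end Vale.Agent.Results.P075.A_ConstantAtLeastThreeLiteral
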