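import Vale.Agent.H20.TriDyadic

/-!
# P075: the constant of the dyadic triangular Hilbert form is at least `3`

`dyadicForm n ε F0 F1 F2` is the dyadic form of the problem with scales `S = {1, …, n}` and
coefficients `ε k`, evaluated on the step functions which take the value `F_v i j` on the unit
square `[i, i+1) × [j, j+1)`, `i, j < 2 ^ n`, and vanish elsewhere; `norm3 n F` is the `L^3`
norm of such a step function.

For every `j` there are coefficients `|ε k| ≤ 1` and sign functions on `2 j` consecutive scales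
for which the form equals `3 (1 - 2 ^ (-j))` times the product of the three `L^3` norms.
Hence no constant `C < 3` bounds the form by `C` times the product of the norms.
-/

namespace Vale.Agent.Results.P075.B_StepFormLowerBound

open Vale.Agent.H20.TriDyadic

theorem result :
    (∀ j : ℕ, ∃ (ε : ℕ → ℝ) (F0 F1 F2 : ℕ → ℕ → ℝ), (∀ k, |ε k| ≤ 1) ∧
        dyadicForm (2 * j) ε F0 F1 F2 =
          3 * (1 - (1 / 2 : ℝ) ^ j) *
            (norm3 (2 * j) F0 * norm3 (2 * j) F1 * norm3 (2 * j) F2)) ∧
    (∀ C : ℝ, C < 3 → ∃ (n : ℕ) (ε : ℕ → ℝ) (F0 F1 F2 : ℕ → ℕ → ℝ), (∀ k, |ε k| ≤ 1) ∧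
        0 < norm3 n F0 * norm3 n F1 * norm3 n F2 ∧
        C * (norm3 n F0 * norm3 n F1 * norm3 n F2) < dyadicForm n ε F0 F1 F2) :=
  constant_ge_three

end Vale.Agent.Results.P075.B_StepFormLowerBound
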